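import Mathlib

/-! A generic matrix supported on a relation, and two rank lemmas. -/

namespace Vale.Agent.P038

open Matrix

theorem poly_generic {V : Type*} [Fintype V] [DecidableEq V] (G : V → V → Prop)
    [DecidableRel G] (u v : V → MvPolynomial (V × V) ℚ) (s t : V) (hst : G s t)
    (h1 : ∀ t', v t' ≠ 0 →
      ∑ i, u i * (if G i t' then (MvPolynomial.X (i, t') : MvPolynomial (V × V) ℚ) else 0) = 0)
    (h2 : ∀ s', u s' ≠ 0 →
      ∑ j, (if G s' j then (MvPolynomial.X (s', j) : MvPolynomial (V × V) ℚ) else 0) * v j = 0) :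
    u s * v t = 0 := by
  set a : V → V → MvPolynomial (V × V) ℚ :=
    fun i j => if G i j then MvPolynomial.X (i, j) else 0 with ha
  have hda : ∀ i j, MvPolynomial.pderiv (s, t) (a i j) = if i = s ∧ j = t then 1 else 0 := by
    intro i j
    by_cases h : i = s ∧ j = t
    · obtain ⟨rfl, rfl⟩ := h
      simp [ha, hst]
    · rw [if_neg h]
      simp only [ha]
      split_ifs with hg
      · apply MvPolynomial.pderiv_X_of_ne
        intro he
        exact h ⟨congrArg Prod.fst he, congrArg Prod.snd he⟩
      · simp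
  have e1 : ∀ j, MvPolynomial.pderiv (s, t) (∑ i, u i * a i j) * v j = 0 := by
    intro j
    by_cases hv : v j = 0
    · rw [hv, mul_zero]
    · have := h1 j hv
      simp only [ha]
      rw [this, map_zero, zero_mul]
  have e2 : ∀ i, MvPolynomial.pderiv (s, t) (u i) * ∑ j, a i j * v j = 0 := by
    intro i
    by_cases hu : u i = 0
    · rw [hu, map_zero, zero_mul]
    · have := h2 i hu
      simp only [ha]
      rw [this, mul_zero]
  have e3 : ∑ j, MvPolynomial.pderiv (s, t) (∑ i, u i * a i j) * v j
      = ∑ i, MvPolynomial.pderiv (s, t) (u i) * ∑ j, a i j * v j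
        + ∑ j, ∑ i, u i * (if i = s ∧ j = t then 1 else 0) * v j := by
    simp only [map_sum, Finset.sum_mul, Finset.mul_sum, Derivation.leibniz, smul_eq_mul, hda]
    rw [Finset.sum_comm (f := fun i j => MvPolynomial.pderiv (s, t) (u i) * (a i j * v j)),
      ← Finset.sum_add_distrib]
    refine Finset.sum_congr rfl fun j _ => ?_
    rw [← Finset.sum_add_distrib]
    refine Finset.sum_congr rfl fun i _ => ?_
    ring
  have e4 : ∑ j, ∑ i, u i * (if i = s ∧ j = t then (1 : MvPolynomial (V × V) ℚ) else 0) * v j
      = u s * v t := by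
    rw [Finset.sum_eq_single t, Finset.sum_eq_single s]
    · simp
    · intro i _ hi
      simp [hi]
    · simp
    · intro j _ hj
      simp [hj]
    · simp
  rw [Finset.sum_eq_zero (fun j _ => e1 j), Finset.sum_eq_zero (fun i _ => e2 i), e4,
    zero_add] at e3
  exact e3.symm

theorem exists_generic {V : Type*} [Fintype V] (G : V → V → Prop) :
    ∃ A : V → V → FractionRing (MvPolynomial (V × V) ℚ),
      (∀ s t, A s t ≠ 0 → G s t) ∧
      ∀ (u v : V → FractionRing (MvPolynomial (V × V) ℚ)) (s t : V), G s t → u s ≠ 0 → v t ≠ 0 →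
        (∀ t', v t' ≠ 0 → ∑ i, u i * A i t' = 0) →
        (∀ s', u s' ≠ 0 → ∑ j, A s' j * v j = 0) → False := by
  classical
  set φ := algebraMap (MvPolynomial (V × V) ℚ) (FractionRing (MvPolynomial (V × V) ℚ)) with hφ
  have hinj : Function.Injective φ := IsFractionRing.injective _ _
  refine ⟨fun i j => φ (if G i j then MvPolynomial.X (i, j) else 0), ?_, ?_⟩
  · intro s t h
    by_contra hg
    simp [hg] at h
  · intro u v s t hst hu hv h1 h2
    obtain ⟨b, hb⟩ := IsLocalization.exist_integer_multiples_of_finite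
      (nonZeroDivisors (MvPolynomial (V × V) ℚ)) u
    obtain ⟨d, hd⟩ := IsLocalization.exist_integer_multiples_of_finite
      (nonZeroDivisors (MvPolynomial (V × V) ℚ)) v
    choose u' hu' using hb
    choose v' hv' using hd
    have hb0 : φ b ≠ 0 := fun h =>
      nonZeroDivisors.coe_ne_zero b (hinj (by rw [h, map_zero]))
    have hd0 : φ d ≠ 0 := fun h =>
      nonZeroDivisors.coe_ne_zero d (hinj (by rw [h, map_zero]))
    have hu2 : ∀ i, φ (u' i) = φ b * u i := fun i => by rw [hφ, hu' i, Algebra.smul_def]
    have hv2 : ∀ i, φ (v' i) = φ d * v i := fun i => by rw [hφ, hv' i, Algebra.smul_def]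
    have key := poly_generic G u' v' s t hst ?_ ?_
    · have := congrArg φ key
      rw [map_mul, hu2, hv2, map_zero] at this
      exact mul_ne_zero (mul_ne_zero hb0 hu) (mul_ne_zero hd0 hv) this
    · intro t' ht'
      have hv0 : v t' ≠ 0 := fun h => ht' (hinj (by rw [hv2, h, mul_zero, map_zero]))
      apply hinj
      rw [map_sum, map_zero]
      simp only [map_mul, hu2, mul_assoc]
      rw [← Finset.mul_sum, h1 t' hv0, mul_zero]
    · intro s' hs'
      have hu0 : u s' ≠ 0 := fun h => hs' (hinj (by rw [hu2, h, mul_zero, map_zero]))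
      apply hinj
      rw [map_sum, map_zero]
      simp only [map_mul, hv2, mul_left_comm _ (φ d)]
      rw [← Finset.mul_sum, h2 s' hu0, mul_zero]

theorem rank_add_rank_le_of_supp {K ι μ κ : Type*} [Field K] [Fintype ι] [Fintype μ]
    [Fintype κ] (P : Matrix ι μ K) (Q : Matrix μ κ K) (M : Finset μ)
    (hP : ∀ i m, m ∉ M → P i m = 0) (hQ : ∀ m k, m ∉ M → Q m k = 0) (h : P * Q = 0) :
    P.rank + Q.rank ≤ M.card := by
  classical
  let E : Matrix M μ K := Matrix.of fun m m' => if m.1 = m' then 1 else 0
  let P' : Matrix ι M K := P.submatrix id Subtype.val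
  let Q' : Matrix M κ K := Q.submatrix Subtype.val id
  have hPE : P = P' * E := by
    ext i m
    simp only [Matrix.mul_apply, P', E, Matrix.submatrix_apply, id, Matrix.of_apply]
    by_cases hm : m ∈ M
    · rw [Finset.sum_eq_single ⟨m, hm⟩]
      · simp
      · intro b _ hb
        rw [if_neg (fun he => hb (Subtype.ext he)), mul_zero]
      · simp
    · rw [hP i m hm]
      symm
      refine Finset.sum_eq_zero fun b _ => ?_
      rw [if_neg (fun he : b.1 = m => hm (he ▸ b.2)), mul_zero]
  have hQE : Q = Eᵀ * Q' := by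
    ext m k
    simp only [Matrix.mul_apply, Q', E, Matrix.submatrix_apply, id, Matrix.transpose_apply,
      Matrix.of_apply]
    by_cases hm : m ∈ M
    · rw [Finset.sum_eq_single ⟨m, hm⟩]
      · simp
      · intro b _ hb
        rw [if_neg (fun he => hb (Subtype.ext he)), zero_mul]
      · simp
    · rw [hQ m k hm]
      symm
      refine Finset.sum_eq_zero fun b _ => ?_
      rw [if_neg (fun he : b.1 = m => hm (he ▸ b.2)), zero_mul]
  have hPQ : P' * Q' = 0 := by
    ext i k
    have := congrFun (congrFun h i) k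
    simp only [Matrix.mul_apply, Matrix.zero_apply] at this ⊢
    simp only [P', Q', Matrix.submatrix_apply, id]
    rw [Finset.sum_coe_sort M (fun m => P i m * Q m k), ← this]
    refine Finset.sum_subset (Finset.subset_univ _) fun m _ hm => ?_
    rw [hP i m hm, zero_mul]
  have h1 : P.rank ≤ P'.rank := by
    conv_lhs => rw [hPE]
    exact Matrix.rank_mul_le_left _ _
  have h2 : Q.rank ≤ Q'.rank := by
    conv_lhs => rw [hQE]
    exact Matrix.rank_mul_le_right _ _
  have h3 := Matrix.rank_add_rank_le_card_of_mul_eq_zero hPQ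
  rw [Fintype.card_coe] at h3
  omega

theorem rank_lower {K ι κ : Type*} [Field K] [Fintype ι] [Fintype κ]
    (P : Matrix ι κ K) (S : Finset ι) (T : Finset κ)
    (ha : ∀ u : ι → K, u ᵥ* P = 0 → ∀ i, i ∉ S → u i = 0)
    (hb : ∀ w : κ → K, (∀ j, j ∉ T → w j = 0) → (∀ i ∈ S, (P *ᵥ w) i = 0) → w = 0) :
    Fintype.card ι + T.card ≤ P.rank + S.card := by
  classical
  let Q : Matrix S T K := P.submatrix Subtype.val Subtype.val
  have hQ : Q.rank = T.card := by
    have hinj : LinearMap.ker Q.mulVecLin = ⊥ := by
      rw [LinearMap.ker_eq_bot']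
      intro w hw
      have h0 := hb (fun j => if h : j ∈ T then w ⟨j, h⟩ else 0)
        (fun j hj => by simp [hj]) (fun i hi => by
          have := congrFun hw ⟨i, hi⟩
          simp only [Matrix.mulVecLin_apply, Matrix.mulVec, dotProduct, Q,
            Matrix.submatrix_apply, Pi.zero_apply] at this ⊢
          rw [← Finset.sum_subset (Finset.subset_univ T)
            (fun j _ hj => by rw [dif_neg hj, mul_zero]), ← Finset.sum_coe_sort T]
          refine Eq.trans (Finset.sum_congr rfl fun j _ => ?_) this
          rw [dif_pos j.2])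
      ext j
      have := congrFun h0 j.1
      simpa using this
    have := LinearMap.finrank_range_add_finrank_ker Q.mulVecLin
    rw [hinj, finrank_bot, add_zero, Module.finrank_fintype_fun_eq_card, Fintype.card_coe] at this
    exact this
  have h1 := LinearMap.finrank_range_add_finrank_ker Pᵀ.mulVecLin
  have h2 := LinearMap.finrank_range_add_finrank_ker Qᵀ.mulVecLin
  rw [Module.finrank_fintype_fun_eq_card] at h1 h2
  have h1' : Module.finrank K (LinearMap.range Pᵀ.mulVecLin) = P.rank := Matrix.rank_transpose P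
  have h2' : Module.finrank K (LinearMap.range Qᵀ.mulVecLin) = Q.rank := Matrix.rank_transpose Q
  rw [Fintype.card_coe] at h2
  have hker : ∀ u : ι → K, u ∈ LinearMap.ker Pᵀ.mulVecLin → u ᵥ* P = 0 := by
    intro u hu
    rw [LinearMap.mem_ker, Matrix.mulVecLin_apply, Matrix.mulVec_transpose] at hu
    exact hu
  let Θ : LinearMap.ker Pᵀ.mulVecLin →ₗ[K] LinearMap.ker Qᵀ.mulVecLin :=
    LinearMap.codRestrict _ ((LinearMap.funLeft K K (Subtype.val : S → ι)).domRestrict _) (by
      intro u
      have hu := hker u.1 u.2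
      rw [LinearMap.mem_ker, Matrix.mulVecLin_apply, Matrix.mulVec_transpose]
      ext j
      have := congrFun hu j.1
      simp only [Matrix.vecMul, dotProduct, Q, Matrix.submatrix_apply, Pi.zero_apply,
        LinearMap.domRestrict_apply, LinearMap.funLeft_apply] at this ⊢
      rw [Finset.sum_coe_sort S (fun i => u.1 i * P i j), ← this]
      refine Finset.sum_subset (Finset.subset_univ _) fun i _ hi => ?_
      rw [ha u.1 hu i hi, zero_mul])
  have hΘ : Function.Injective Θ := by
    rw [← LinearMap.ker_eq_bot, LinearMap.ker_eq_bot']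
    intro u hu
    ext i
    by_cases hi : i ∈ S
    · have := congrFun (congrArg Subtype.val hu) ⟨i, hi⟩
      simpa [Θ] using this
    · simpa using ha u.1 (hker u.1 u.2) i hi
  have h3 := LinearMap.finrank_le_finrank_of_injective hΘ
  omega

end Vale.Agent.P038
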