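import Mathlib

/-! The strict subset inequality in an arc-minimal counterexample. -/

namespace Vale.Agent.P038

variable {V : Type*} [Fintype V]

open Classical in
/-- first out-neighbourhood -/
noncomputable def N1 (E : V → V → Prop) (v : V) : Finset V :=
  Finset.univ.filter fun u => E v u

open Classical in
/-- second out-neighbourhood -/
noncomputable def N2 (E : V → V → Prop) (v : V) : Finset V :=
  Finset.univ.filter fun w => w ≠ v ∧ ¬ E v w ∧ ∃ u, E v u ∧ E u w

open Classical in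
/-- closed out-neighbourhood of a set -/
noncomputable def gam (E : V → V → Prop) (S : Finset V) : Finset V :=
  Finset.univ.filter fun y => ∃ x ∈ S, x = y ∨ E x y

theorem mem_N1 {E : V → V → Prop} {v u : V} : u ∈ N1 E v ↔ E v u := by simp [N1]

theorem mem_N2 {E : V → V → Prop} {v w : V} :
    w ∈ N2 E v ↔ w ≠ v ∧ ¬ E v w ∧ ∃ u, E v u ∧ E u w := by simp [N2]

theorem mem_gam {E : V → V → Prop} {S : Finset V} {y : V} :
    y ∈ gam E S ↔ ∃ x ∈ S, x = y ∨ E x y := by
  simp only [gam, Finset.mem_filter, Finset.mem_univ, true_and]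

theorem subset_gam (E : V → V → Prop) (S : Finset V) : S ⊆ gam E S :=
  fun x hx => mem_gam.2 ⟨x, hx, Or.inl rfl⟩

theorem star_step [DecidableEq V] (E : V → V → Prop)
    (hno : ∀ v, (N2 E v).card < (N1 E v).card)
    (hmin : ∀ E' : V → V → Prop, (∀ x y, E' x y → E x y) → (∃ x y, E x y ∧ ¬ E' x y) →
      ∃ v, (N1 E' v).card ≤ (N2 E' v).card)
    (S Y : Finset V) (hY : Y ⊆ gam E S \ S) (hne : Y ≠ gam E S \ S) :
    ∃ X : Finset V, X ⊆ gam E S \ S ∧ Disjoint Y X ∧
      (gam E (Y ∪ X) \ S).card < (gam E Y \ S).card + 2 * X.card := by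
  classical
  set T := (gam E S \ S) \ Y with hT
  obtain ⟨t, ht⟩ : T.Nonempty := by
    rw [hT, Finset.sdiff_nonempty]
    exact fun h => hne (Finset.Subset.antisymm hY h)
  let E' : V → V → Prop := fun x y => E x y ∧ ¬ (x ∈ S ∧ y ∈ T)
  obtain ⟨v, hv⟩ := hmin E' (fun x y h => h.1) (by
    have h1 := Finset.mem_sdiff.1 (Finset.mem_sdiff.1 ht).1
    obtain ⟨x, hx, hxt⟩ := mem_gam.1 h1.1
    rcases hxt with rfl | hxt
    · exact absurd hx h1.2
    · exact ⟨x, t, hxt, fun h => h.2 ⟨hx, ht⟩⟩)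
  have hvS : v ∈ S := by
    by_contra hvS
    have e1 : N1 E' v = N1 E v := by
      ext u
      simp [mem_N1, E', hvS]
    have e2 : N2 E' v ⊆ N2 E v := by
      intro w hw
      obtain ⟨h1, h2, u, h3, h4⟩ := mem_N2.1 hw
      exact mem_N2.2 ⟨h1, fun h => h2 ⟨h, fun h' => hvS h'.1⟩, u, h3.1, h4.1⟩
    have := Finset.card_le_card e2
    have := hno v
    rw [e1] at hv
    omega
  set X := N1 E v ∩ T with hX
  have hXT : X ⊆ T := Finset.inter_subset_right
  have hXS : ∀ x ∈ X, x ∉ S := fun x hx =>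
    (Finset.mem_sdiff.1 (Finset.mem_sdiff.1 (hXT hx)).1).2
  refine ⟨X, hXT.trans Finset.sdiff_subset, ?_, ?_⟩
  · rw [Finset.disjoint_left]
    exact fun y hy hx => (Finset.mem_sdiff.1 (hXT hx)).2 hy
  have hout : ∀ x ∈ S, ∀ y, E' x y → y ∈ S ∨ y ∈ Y := by
    intro x hx y h
    by_contra hc
    push Not at hc
    exact h.2 ⟨hx, Finset.mem_sdiff.2
      ⟨Finset.mem_sdiff.2 ⟨mem_gam.2 ⟨x, hx, Or.inr h.1⟩, hc.1⟩, hc.2⟩⟩
  have c1 : (N1 E v).card ≤ (N1 E' v).card + X.card := by
    refine le_trans (Finset.card_le_card ?_) (Finset.card_union_le _ _)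
    intro u hu
    by_cases h : u ∈ T
    · exact Finset.mem_union_right _ (Finset.mem_inter.2 ⟨hu, h⟩)
    · exact Finset.mem_union_left _ (mem_N1.2 ⟨mem_N1.1 hu, fun h' => h h'.2⟩)
  have c2 : (N2 E' v).card ≤ (X ∩ gam E Y).card + (N2 E v ∩ (S ∪ gam E Y)).card := by
    refine le_trans (Finset.card_le_card ?_) (Finset.card_union_le _ _)
    intro w hw
    obtain ⟨h1, h2, u, h3, h4⟩ := mem_N2.1 hw
    have hw2 : w ∈ S ∪ gam E Y := by
      rcases hout v hvS u h3 with hu | hu
      · rcases hout u hu w h4 with h | h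
        · exact Finset.mem_union_left _ h
        · exact Finset.mem_union_right _ (subset_gam E Y h)
      · exact Finset.mem_union_right _ (mem_gam.2 ⟨u, hu, Or.inr h4.1⟩)
    by_cases h : E v w
    · have hwT : w ∈ T := by
        by_contra h'
        exact h2 ⟨h, fun h'' => h' h''.2⟩
      have hwX : w ∈ X := Finset.mem_inter.2 ⟨mem_N1.2 h, hwT⟩
      refine Finset.mem_union_left _ (Finset.mem_inter.2 ⟨hwX, ?_⟩)
      rcases Finset.mem_union.1 hw2 with h' | h'
      · exact absurd h' (hXS w hwX)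
      · exact h'
    · exact Finset.mem_union_right _
        (Finset.mem_inter.2 ⟨mem_N2.2 ⟨h1, h, u, h3.1, h4.1⟩, hw2⟩)
  have c3 : (gam E X \ (S ∪ gam E Y ∪ X)).card ≤ (N2 E v \ (S ∪ gam E Y)).card := by
    refine Finset.card_le_card fun w hw => ?_
    obtain ⟨h1, h2⟩ := Finset.mem_sdiff.1 hw
    simp only [Finset.mem_union, not_or] at h2
    obtain ⟨x, hx, hxw⟩ := mem_gam.1 h1
    rcases hxw with rfl | hxw
    · exact absurd hx h2.2
    refine Finset.mem_sdiff.2 ⟨mem_N2.2 ⟨?_, ?_, x, mem_N1.1 (Finset.mem_inter.1 hx).1, hxw⟩, ?_⟩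
    · rintro rfl
      exact h2.1.1 hvS
    · intro h
      by_cases hT' : w ∈ T
      · exact h2.2 (Finset.mem_inter.2 ⟨mem_N1.2 h, hT'⟩)
      · rcases hout v hvS w ⟨h, fun h' => hT' h'.2⟩ with h' | h'
        · exact h2.1.1 h'
        · exact h2.1.2 (subset_gam E Y h')
    · simp only [Finset.mem_union, not_or]
      exact h2.1
  have c4 := Finset.card_inter_add_card_sdiff (N2 E v) (S ∪ gam E Y)
  have c5 := Finset.card_inter_add_card_sdiff X (gam E Y)
  have c6 : (gam E (Y ∪ X) \ S).card ≤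
      (gam E Y \ S).card + (X \ gam E Y).card + (gam E X \ (S ∪ gam E Y ∪ X)).card := by
    refine le_trans (Finset.card_le_card ?_) ((Finset.card_union_le _ _).trans
      (Nat.add_le_add_right (Finset.card_union_le _ _) _))
    intro w hw
    obtain ⟨h1, h2⟩ := Finset.mem_sdiff.1 hw
    by_cases hY' : w ∈ gam E Y
    · exact Finset.mem_union_left _ (Finset.mem_union_left _ (Finset.mem_sdiff.2 ⟨hY', h2⟩))
    · by_cases hX' : w ∈ X
      · exact Finset.mem_union_left _ (Finset.mem_union_right _ (Finset.mem_sdiff.2 ⟨hX', hY'⟩))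
      · refine Finset.mem_union_right _ (Finset.mem_sdiff.2 ⟨?_, by simp [h2, hY', hX']⟩)
        obtain ⟨x, hx, hxw⟩ := mem_gam.1 h1
        rcases Finset.mem_union.1 hx with hx | hx
        · exact absurd (mem_gam.2 ⟨x, hx, hxw⟩) hY'
        · exact mem_gam.2 ⟨x, hx, hxw⟩
  have := hno v
  omega

theorem star [DecidableEq V] (E : V → V → Prop)
    (hno : ∀ v, (N2 E v).card < (N1 E v).card)
    (hmin : ∀ E' : V → V → Prop, (∀ x y, E' x y → E x y) → (∃ x y, E x y ∧ ¬ E' x y) →
      ∃ v, (N1 E' v).card ≤ (N2 E' v).card)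
    (S : Finset V) (hS : gam E S ≠ S) :
    (gam E (gam E S)).card + S.card < 2 * (gam E S).card := by
  classical
  obtain ⟨Y, hY, hYmin⟩ := Finset.exists_min_image (gam E S \ S).powerset
    (fun Y => ((gam E Y \ S).card : ℤ) - 2 * Y.card) ⟨∅, by simp⟩
  rw [Finset.mem_powerset] at hY
  have hYeq : Y = gam E S \ S := by
    by_contra hne
    obtain ⟨X, hX, hd, hlt⟩ := star_step E hno hmin S Y hY hne
    have := hYmin (Y ∪ X) (Finset.mem_powerset.2 (Finset.union_subset hY hX))
    rw [Finset.card_union_of_disjoint hd] at this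
    push_cast at this
    omega
  have hne : (∅ : Finset V) ≠ gam E S \ S := by
    intro h
    exact hS (Finset.Subset.antisymm (Finset.sdiff_eq_empty_iff_subset.1 h.symm) (subset_gam E S))
  obtain ⟨X, hX, -, hlt⟩ := star_step E hno hmin S ∅ (Finset.empty_subset _) hne
  have h0 : gam E (∅ : Finset V) = ∅ := by
    ext y
    simp [mem_gam]
  rw [Finset.empty_union, h0, Finset.empty_sdiff, Finset.card_empty] at hlt
  have h1 := hYmin X (Finset.mem_powerset.2 hX)
  have h2 : (gam E (gam E S)).card ≤ (gam E Y \ S).card + S.card := by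
    refine le_trans (Finset.card_le_card ?_) (Finset.card_union_le _ _)
    intro w hw
    by_cases hwS : w ∈ S
    · exact Finset.mem_union_right _ hwS
    · refine Finset.mem_union_left _ (Finset.mem_sdiff.2 ⟨?_, hwS⟩)
      obtain ⟨x, hx, hxw⟩ := mem_gam.1 hw
      by_cases hxS : x ∈ S
      · refine subset_gam E Y ?_
        rw [hYeq]
        exact Finset.mem_sdiff.2 ⟨mem_gam.2 ⟨x, hxS, hxw⟩, hwS⟩
      · exact mem_gam.2 ⟨x, by rw [hYeq]; exact Finset.mem_sdiff.2 ⟨hx, hxS⟩, hxw⟩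
  have h3 : Y.card + S.card = (gam E S).card := by
    rw [hYeq]
    exact Finset.card_sdiff_add_card_eq_card (subset_gam E S)
  omega

end Vale.Agent.P038
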