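import Vale.Agent.P038.Rank
import Vale.Agent.P038.Star

/-! The extremal conflict-free pair argument. -/

namespace Vale.Agent.P038

variable {V : Type*} [Fintype V]

theorem card_eq_sum_row [DecidableEq V] (R : Finset (V × V)) :
    R.card = ∑ x, (Finset.univ.filter fun y => (x, y) ∈ R).card := by
  simp only [Finset.card_filter]
  rw [← Fintype.sum_prod_type' (f := fun x y => if (x, y) ∈ R then 1 else 0)]
  simp

theorem card_eq_sum_col [DecidableEq V] (R : Finset (V × V)) :
    R.card = ∑ y, (Finset.univ.filter fun x => (x, y) ∈ R).card := by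
  simp only [Finset.card_filter]
  rw [Finset.sum_comm, ← Fintype.sum_prod_type' (f := fun x y => if (x, y) ∈ R then 1 else 0)]
  simp

theorem row_fa [DecidableEq V] (E : V → V → Prop) (R : Finset (V × V)) (x : V) :
    (Finset.univ.filter fun y => (x, y) ∈ fa (fun a b => a = b ∨ E a b) R) =
      gam E (Finset.univ.filter fun y => (x, y) ∈ R) := by
  ext y
  simp only [Finset.mem_filter, Finset.mem_univ, true_and, mem_fa, mem_gam]

theorem col_fc [DecidableEq V] (E : V → V → Prop) (R : Finset (V × V)) (y : V) :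
    (Finset.univ.filter fun x => (x, y) ∈ fc (fun a b => a = b ∨ E a b) R) =
      gam E (Finset.univ.filter fun x => (x, y) ∈ R) := by
  ext x
  simp only [Finset.mem_filter, Finset.mem_univ, true_and, mem_fc, mem_gam]

theorem exists_not_closed [Nonempty V] (E : V → V → Prop) (hirr : ∀ v, ¬ E v v)
    (hout : ∀ v, ∃ w, E v w) (S : V → Finset V) (h1 : ∀ x, x ∈ S x)
    (h2 : ∀ x y, E y x → y ∉ S x) : ∃ x, gam E (S x) ≠ S x := by
  classical
  by_contra hc
  push Not at hc
  obtain ⟨S0, hS0, hmin⟩ := Finset.exists_min_image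
    (Finset.univ.filter fun T : Finset V => T.Nonempty ∧ ∀ a ∈ T, ∀ b, E a b → b ∈ T)
    Finset.card ⟨Finset.univ, by simp⟩
  simp only [Finset.mem_filter, Finset.mem_univ, true_and] at hS0 hmin
  obtain ⟨⟨x, hx⟩, hcl⟩ := hS0
  have e1 : S0 ⊆ S x := by
    have := hmin (S0 ∩ S x) ⟨⟨x, Finset.mem_inter.2 ⟨hx, h1 x⟩⟩, fun a ha b hab => by
      obtain ⟨ha1, ha2⟩ := Finset.mem_inter.1 ha
      refine Finset.mem_inter.2 ⟨hcl a ha1 b hab, ?_⟩
      rw [← hc x]
      exact mem_gam.2 ⟨a, ha2, Or.inr hab⟩⟩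
    have h := Finset.eq_of_subset_of_card_le (Finset.inter_subset_left (s₂ := S x)) this
    rw [← h]
    exact Finset.inter_subset_right
  obtain ⟨w, hw⟩ := hout x
  have := hmin (S0.erase x) ⟨⟨w, Finset.mem_erase.2 ⟨fun h => hirr x (h ▸ hw), hcl x hx w hw⟩⟩,
    fun a ha b hab => by
      have ha' := Finset.mem_of_mem_erase ha
      refine Finset.mem_erase.2 ⟨?_, hcl a ha' b hab⟩
      rintro rfl
      exact h2 b a hab (e1 ha')⟩
  have := Finset.card_erase_lt_of_mem hx
  omega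

theorem no_counter [Nonempty V] (E : V → V → Prop) (hirr : ∀ v, ¬ E v v)
    (hasym : ∀ u v, E u v → ¬ E v u) (hout : ∀ v, ∃ w, E v w)
    (hstar : ∀ S : Finset V, gam E S ≠ S →
      (gam E (gam E S)).card + S.card < 2 * (gam E S).card) : False := by
  classical
  set G : V → V → Prop := fun a b => a = b ∨ E a b with hG
  set D : Finset (V × V) := Finset.univ.diag with hD
  have memD : ∀ x y : V, (x, y) ∈ D ↔ x = y := fun x y => by simp [hD]
  have cardD : D.card = Fintype.card V := by simp [hD]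
  have hweak : ∀ S : Finset V, (gam E (gam E S)).card + S.card ≤ 2 * (gam E S).card := by
    intro S
    by_cases h : gam E S = S
    · rw [h, h]
      omega
    · exact (hstar S h).le
  obtain ⟨⟨R, C⟩, hRC, hmax⟩ := Finset.exists_max_image
    (Finset.univ.filter fun q : Finset (V × V) × Finset (V × V) =>
      (∀ x y z, (x, y) ∈ q.1 → G y z → ¬ G z x) ∧ (∀ x y z, (x, y) ∈ q.2 → G x z → ¬ G z y) ∧
        Disjoint (fa G q.1) (fc G q.2))
    (fun q => q.1.card + q.2.card + (fa G (q.1 ∪ D) ∪ fc G (q.2 ∪ D))ᶜ.card)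
    ⟨(∅, ∅), by
      simp only [Finset.mem_filter, Finset.mem_univ, true_and]
      refine ⟨by simp, by simp, ?_⟩
      rw [Finset.disjoint_left]
      rintro ⟨x, y⟩ h
      simp [mem_fa] at h⟩
  simp only [Finset.mem_filter, Finset.mem_univ, true_and] at hRC hmax
  obtain ⟨hR, hC, hdis⟩ := hRC
  set X := fa G (R ∪ D) with hX
  set Y := fc G (C ∪ D) with hY
  have hXY : X ∩ Y = D := by
    ext ⟨x, y⟩
    rw [Finset.mem_inter, memD]
    constructor
    · rintro ⟨h1, h2⟩
      obtain ⟨y0, h1, hy⟩ := mem_fa.1 h1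
      obtain ⟨x0, h2, hx⟩ := mem_fc.1 h2
      rcases Finset.mem_union.1 h1 with h1 | h1 <;> rcases Finset.mem_union.1 h2 with h2 | h2
      · exact absurd (mem_fc.2 ⟨x0, h2, hx⟩)
          (Finset.disjoint_left.1 hdis (mem_fa.2 ⟨y0, h1, hy⟩))
      · have e : x0 = y := (memD _ _).1 h2
        exact absurd (e ▸ hx) (hR _ _ _ h1 hy)
      · obtain rfl := (memD _ _).1 h1
        exact absurd hy (hC _ _ _ h2 hx)
      · obtain rfl := (memD _ _).1 h1
        obtain rfl := (memD _ _).1 h2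
        rcases hy with hy | hy
        · exact hy
        · rcases hx with hx | hx
          · exact hx.symm
          · exact absurd hx (hasym _ _ hy)
    · rintro rfl
      exact ⟨mem_fa.2 ⟨x, Finset.mem_union_right _ ((memD _ _).2 rfl), Or.inl rfl⟩,
        mem_fc.2 ⟨x, Finset.mem_union_right _ ((memD _ _).2 rfl), Or.inl rfl⟩⟩
  have cR : (R ∪ D).card = R.card + Fintype.card V := by
    rw [Finset.card_union_of_disjoint, cardD]
    rw [Finset.disjoint_left]
    rintro ⟨x, y⟩ h1 h2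
    obtain rfl := (memD _ _).1 h2
    exact hR _ _ _ h1 (Or.inl rfl) (Or.inl rfl)
  have cC : (C ∪ D).card = C.card + Fintype.card V := by
    rw [Finset.card_union_of_disjoint, cardD]
    rw [Finset.disjoint_left]
    rintro ⟨x, y⟩ h1 h2
    obtain rfl := (memD _ _).1 h2
    exact hC _ _ _ h1 (Or.inl rfl) (Or.inl rfl)
  have sR : (fa G X).card + (R ∪ D).card < 2 * X.card := by
    rw [card_eq_sum_row (fa G X), card_eq_sum_row (R ∪ D), card_eq_sum_row X, Finset.mul_sum,
      ← Finset.sum_add_distrib]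
    simp only [hX, hG, row_fa]
    obtain ⟨x, hx⟩ := exists_not_closed E hirr hout
      (fun x => Finset.univ.filter fun y => (x, y) ∈ R ∪ D)
      (fun x => by simp [memD]) (fun x y hyx hy => by
        rcases Finset.mem_union.1 (Finset.mem_filter.1 hy).2 with h | h
        · exact hR _ _ _ h (Or.inl rfl) (Or.inr hyx)
        · obtain rfl := (memD _ _).1 h
          exact hirr _ hyx)
    exact Finset.sum_lt_sum (fun i _ => hweak _) ⟨x, Finset.mem_univ _, hstar _ hx⟩
  have sC : (fc G Y).card + (C ∪ D).card ≤ 2 * Y.card := by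
    rw [card_eq_sum_col (fc G Y), card_eq_sum_col (C ∪ D), card_eq_sum_col Y, Finset.mul_sum,
      ← Finset.sum_add_distrib]
    simp only [hY, hG, col_fc]
    exact Finset.sum_le_sum (fun i _ => hweak _)
  have hW1 : ∀ x y z, (x, y) ∈ (fc G Y)ᶜ → G y z → ¬ G z x := by
    intro x y z h h1 h2
    exact Finset.mem_compl.1 h (mem_fc.2 ⟨z, mem_fc.2
      ⟨y, Finset.mem_union_right _ ((memD _ _).2 rfl), h1⟩, h2⟩)
  have hW2 : ∀ x y z, (x, y) ∈ (fa G X)ᶜ → G x z → ¬ G z y := by
    intro x y z h h1 h2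
    exact Finset.mem_compl.1 h (mem_fa.2 ⟨z, mem_fa.2
      ⟨x, Finset.mem_union_right _ ((memD _ _).2 rfl), h1⟩, h2⟩)
  obtain ⟨S1, hS1, S2, hS2, hd, hle⟩ := rank_lemma G (fc G Y)ᶜ (fa G X)ᶜ
  set W1 := (fc G Y)ᶜ with hW1d
  set W2 := (fa G X)ᶜ with hW2d
  have hB : (bc G W1 ∩ ba G W2).card ≤ (X ∪ Y)ᶜ.card := by
    refine Finset.card_le_card ?_
    rintro ⟨x, y⟩ h
    obtain ⟨h1, h2⟩ := Finset.mem_inter.1 h
    obtain ⟨x1, h1, hx⟩ := mem_bc.1 h1
    obtain ⟨y1, h2, hy⟩ := mem_ba.1 h2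
    rw [Finset.mem_compl, Finset.mem_union]
    rintro (h | h)
    · exact Finset.mem_compl.1 h2 (mem_fa.2 ⟨y, h, hy⟩)
    · exact Finset.mem_compl.1 h1 (mem_fc.2 ⟨x, h, hx⟩)
  have hF : (fa G W1 ∩ fc G W2).card ≤ (fa G (S1 ∪ D) ∪ fc G (S2 ∪ D))ᶜ.card +
      (fa G S1 ∩ fc G W2).card + (fa G W1 ∩ fc G S2).card := by
    refine le_trans (Finset.card_le_card ?_) ((Finset.card_union_le _ _).trans
      (Nat.add_le_add_right (Finset.card_union_le _ _) _))
    rintro ⟨x, y⟩ h
    obtain ⟨h1, h2⟩ := Finset.mem_inter.1 h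
    by_cases h3 : (x, y) ∈ fa G S1
    · exact Finset.mem_union_left _ (Finset.mem_union_right _ (Finset.mem_inter.2 ⟨h3, h2⟩))
    by_cases h4 : (x, y) ∈ fc G S2
    · exact Finset.mem_union_right _ (Finset.mem_inter.2 ⟨h1, h4⟩)
    refine Finset.mem_union_left _ (Finset.mem_union_left _ ?_)
    rw [Finset.mem_compl, Finset.mem_union]
    obtain ⟨y0, h1, hy⟩ := mem_fa.1 h1
    obtain ⟨x0, h2, hx⟩ := mem_fc.1 h2
    rintro (h | h)
    · obtain ⟨z, hz, hzy⟩ := mem_fa.1 h
      rcases Finset.mem_union.1 hz with hz | hz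
      · exact h3 (mem_fa.2 ⟨z, hz, hzy⟩)
      · obtain rfl := (memD _ _).1 hz
        exact hW2 _ _ _ h2 hx hzy
    · obtain ⟨z, hz, hzx⟩ := mem_fc.1 h
      rcases Finset.mem_union.1 hz with hz | hz
      · exact h4 (mem_fc.2 ⟨z, hz, hzx⟩)
      · have e : z = y := (memD _ _).1 hz
        exact hW1 _ _ _ h1 hy (e ▸ hzx)
  have hm := hmax (S1, S2) ⟨fun x y z h => hW1 x y z (hS1 h), fun x y z h => hW2 x y z (hS2 h), hd⟩
  simp only at hm
  have d1 := Finset.card_add_card_compl (fc G Y)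
  have d2 := Finset.card_add_card_compl (fa G X)
  have d3 := Finset.card_add_card_compl (X ∪ Y)
  have d4 := Finset.card_union_add_card_inter X Y
  rw [hXY, cardD] at d4
  rw [← hW1d] at d1
  rw [← hW2d] at d2
  omega

theorem seymour [Nonempty V] (k : ℕ) : ∀ (E : V → V → Prop), (∀ v, ¬ E v v) →
    (∀ u v, E u v → ¬ E v u) → {p : V × V | E p.1 p.2}.ncard = k →
    ∃ v, (N1 E v).card ≤ (N2 E v).card := by
  classical
  induction k using Nat.strong_induction_on with
  | _ k ih =>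
    intro E hirr hasym hk
    by_contra hc
    push Not at hc
    refine no_counter E hirr hasym (fun v => ?_) (star E hc fun E' h1 h2 => ?_)
    · obtain ⟨w, hw⟩ : (N1 E v).Nonempty := Finset.card_pos.1 (by have := hc v; omega)
      exact ⟨w, mem_N1.1 hw⟩
    · refine ih _ ?_ E' (fun v h => hirr v (h1 _ _ h))
        (fun u v h h' => hasym u v (h1 _ _ h) (h1 _ _ h')) rfl
      rw [← hk]
      refine Set.ncard_lt_ncard ?_ (Set.toFinite _)
      obtain ⟨x, y, h3, h4⟩ := h2
      exact ⟨fun p hp => h1 _ _ hp, fun h => h4 (h (show (x, y) ∈ {p : V × V | E p.1 p.2} from h3))⟩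

end Vale.Agent.P038
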