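import Vale.Agent.P038.Generic

/-! The rank lemma: from back conflicts to a conflict-free sub-pair. -/

namespace Vale.Agent.P038

open Matrix

variable {V : Type*} [Fintype V]

open Classical in
/-- forward move inside a row -/
noncomputable def fa (G : V → V → Prop) (R : Finset (V × V)) : Finset (V × V) :=
  Finset.univ.filter fun p => ∃ y, (p.1, y) ∈ R ∧ G y p.2

open Classical in
/-- forward move inside a column -/
noncomputable def fc (G : V → V → Prop) (C : Finset (V × V)) : Finset (V × V) :=
  Finset.univ.filter fun p => ∃ x, (x, p.2) ∈ C ∧ G x p.1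

open Classical in
/-- backward move inside a column -/
noncomputable def bc (G : V → V → Prop) (R : Finset (V × V)) : Finset (V × V) :=
  Finset.univ.filter fun p => ∃ x, (x, p.2) ∈ R ∧ G p.1 x

open Classical in
/-- backward move inside a row -/
noncomputable def ba (G : V → V → Prop) (C : Finset (V × V)) : Finset (V × V) :=
  Finset.univ.filter fun p => ∃ y, (p.1, y) ∈ C ∧ G p.2 y

theorem mem_fa {G : V → V → Prop} {R : Finset (V × V)} {x y : V} :
    (x, y) ∈ fa G R ↔ ∃ z, (x, z) ∈ R ∧ G z y := by simp [fa]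

theorem mem_fc {G : V → V → Prop} {C : Finset (V × V)} {x y : V} :
    (x, y) ∈ fc G C ↔ ∃ z, (z, y) ∈ C ∧ G z x := by simp [fc]

theorem mem_bc {G : V → V → Prop} {R : Finset (V × V)} {x y : V} :
    (x, y) ∈ bc G R ↔ ∃ z, (z, y) ∈ R ∧ G x z := by simp [bc]

theorem mem_ba {G : V → V → Prop} {C : Finset (V × V)} {x y : V} :
    (x, y) ∈ ba G C ↔ ∃ z, (x, z) ∈ C ∧ G y z := by simp [ba]

theorem rank_lemma_aux [DecidableEq V] {K : Type*} [Field K] (G : V → V → Prop)
    (A : V → V → K) (hA : ∀ s t, A s t ≠ 0 → G s t)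
    (hG : ∀ (u v : V → K) (s t : V), G s t → u s ≠ 0 → v t ≠ 0 →
        (∀ t', v t' ≠ 0 → ∑ i, u i * A i t' = 0) →
        (∀ s', u s' ≠ 0 → ∑ j, A s' j * v j = 0) → False)
    (R C : Finset (V × V)) :
    ∃ S1 ⊆ R, ∃ S2 ⊆ C, Disjoint (fa G S1) (fc G S2) ∧
      R.card + C.card + (fa G S1 ∩ fc G C).card + (fa G R ∩ fc G S2).card ≤
        (fa G R ∩ fc G C).card + (bc G R ∩ ba G C).card + S1.card + S2.card := by
  classical
  set F := fa G R ∩ fc G C with hF
  set B := bc G R ∩ ba G C with hB
  let P : Matrix (V × V) ((V × V) ⊕ (V × V)) K := Matrix.of fun r m =>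
    Sum.elim (fun f => if r ∈ R ∧ f ∈ F ∧ r.1 = f.1 then A r.2 f.2 else 0)
      (fun b => if r ∈ R ∧ b ∈ B ∧ r.2 = b.2 then A b.1 r.1 else 0) m
  let Q : Matrix (V × V) ((V × V) ⊕ (V × V)) K := Matrix.of fun s m =>
    Sum.elim (fun f => if s ∈ C ∧ f ∈ F ∧ s.2 = f.2 then A s.1 f.1 else 0)
      (fun b => if s ∈ C ∧ b ∈ B ∧ s.1 = b.1 then - A b.2 s.2 else 0) m
  have hPQ : P * Qᵀ = 0 := by
    ext ⟨x, y0⟩ ⟨x0, y⟩
    simp only [Matrix.mul_apply, Matrix.transpose_apply, Fintype.sum_sum_type, P, Q,
      Matrix.of_apply, Sum.elim_inl, Sum.elim_inr, Matrix.zero_apply]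
    rw [Finset.sum_eq_single (x, y), Finset.sum_eq_single (x0, y0)]
    · by_cases hr : (x, y0) ∈ R
      · by_cases hs : (x0, y) ∈ C
        · by_cases h1 : A y0 y = 0
          · simp [h1]
          · by_cases h2 : A x0 x = 0
            · simp [h2]
            · have hf : (x, y) ∈ F := Finset.mem_inter.2
                ⟨mem_fa.2 ⟨y0, hr, hA _ _ h1⟩, mem_fc.2 ⟨x0, hs, hA _ _ h2⟩⟩
              have hb : (x0, y0) ∈ B := Finset.mem_inter.2
                ⟨mem_bc.2 ⟨x, hr, hA _ _ h2⟩, mem_ba.2 ⟨y, hs, hA _ _ h1⟩⟩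
              simp only [hr, hs, hf, hb, and_self, if_true]
              ring
        · simp [hs]
      · simp [hr]
    · rintro ⟨b1, b2⟩ _ hb
      by_cases h1 : y0 = b2
      · by_cases h2 : x0 = b1
        · exact absurd (by rw [h1, h2]) hb
        · simp [h2]
      · simp [h1]
    · simp
    · rintro ⟨b1, b2⟩ _ hb
      by_cases h1 : x = b1
      · by_cases h2 : y = b2
        · exact absurd (by rw [h1, h2]) hb
        · simp [h2]
      · simp [h1]
    · simp
  have hrank : P.rank + Q.rank ≤ F.card + B.card := by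
    have := rank_add_rank_le_of_supp P Qᵀ (F.disjSum B) (by
      rintro i (m | m) hm
      · have : m ∉ F := by simpa using hm
        simp [P, this]
      · have : m ∉ B := by simpa using hm
        simp [P, this]) (by
      rintro (m | m) k hm
      · have : m ∉ F := by simpa using hm
        simp [Q, this]
      · have : m ∉ B := by simpa using hm
        simp [Q, this]) hPQ
    rwa [Matrix.rank_transpose, Finset.card_disjSum] at this
  -- the kernel equations
  have hU : ∀ u : V × V → K, u ᵥ* P = 0 → ∀ x t, (x, t) ∈ fc G C →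
      ∑ i, (if (x, i) ∈ R then u (x, i) else 0) * A i t = 0 := by
    intro u hu x t ht
    by_cases hf : (x, t) ∈ F
    · have := congrFun hu (Sum.inl (x, t))
      simp only [Matrix.vecMul, dotProduct, P, Matrix.of_apply, Sum.elim_inl, Pi.zero_apply,
        Fintype.sum_prod_type] at this
      rw [Finset.sum_eq_single x] at this
      · refine Eq.trans (Finset.sum_congr rfl fun i _ => ?_) this
        by_cases hi : (x, i) ∈ R <;> simp [hi, hf]
      · intro b _ hb
        simp [hb]
      · simp
    · refine Finset.sum_eq_zero fun i _ => ?_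
      by_cases hi : (x, i) ∈ R
      · by_cases ha : A i t = 0
        · rw [ha, mul_zero]
        · exact absurd (Finset.mem_inter.2 ⟨mem_fa.2 ⟨i, hi, hA _ _ ha⟩, ht⟩) hf
      · simp [hi]
  have hVF : ∀ v : V × V → K, v ᵥ* Q = 0 → ∀ x y, (x, y) ∈ fa G R →
      ∑ i, (if (i, y) ∈ C then v (i, y) else 0) * A i x = 0 := by
    intro v hv x y ht
    by_cases hf : (x, y) ∈ F
    · have := congrFun hv (Sum.inl (x, y))
      simp only [Matrix.vecMul, dotProduct, Q, Matrix.of_apply, Sum.elim_inl, Pi.zero_apply,
        Fintype.sum_prod_type] at this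
      refine Eq.trans (Finset.sum_congr rfl fun i _ => ?_) this
      rw [Finset.sum_eq_single y]
      · by_cases hi : (i, y) ∈ C <;> simp [hi, hf]
      · intro b _ hb
        simp [hb]
      · simp
    · refine Finset.sum_eq_zero fun i _ => ?_
      by_cases hi : (i, y) ∈ C
      · by_cases ha : A i x = 0
        · rw [ha, mul_zero]
        · exact absurd (Finset.mem_inter.2 ⟨ht, mem_fc.2 ⟨i, hi, hA _ _ ha⟩⟩) hf
      · simp [hi]
  have hVB : ∀ v : V × V → K, v ᵥ* Q = 0 → ∀ x y, (x, y) ∈ bc G R →
      ∑ j, A y j * (if (x, j) ∈ C then v (x, j) else 0) = 0 := by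
    intro v hv x y ht
    by_cases hf : (x, y) ∈ B
    · have := congrFun hv (Sum.inr (x, y))
      simp only [Matrix.vecMul, dotProduct, Q, Matrix.of_apply, Sum.elim_inr, Pi.zero_apply,
        Fintype.sum_prod_type] at this
      rw [Finset.sum_eq_single x] at this
      · rw [← neg_eq_zero, ← Finset.sum_neg_distrib]
        refine Eq.trans (Finset.sum_congr rfl fun i _ => ?_) this
        by_cases hi : (x, i) ∈ C <;> simp [hi, hf, mul_comm]
      · intro b _ hb
        simp [hb]
      · simp
    · refine Finset.sum_eq_zero fun j _ => ?_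
      by_cases hj : (x, j) ∈ C
      · by_cases ha : A y j = 0
        · rw [ha, zero_mul]
        · exact absurd (Finset.mem_inter.2 ⟨ht, mem_ba.2 ⟨j, hj, hA _ _ ha⟩⟩) hf
      · simp [hj]
  let S1 := R.filter fun r => ∃ u : V × V → K, u ᵥ* P = 0 ∧ u r ≠ 0
  let S2 := C.filter fun s => ∃ v : V × V → K, v ᵥ* Q = 0 ∧ v s ≠ 0
  have hS1 : S1 ⊆ R := Finset.filter_subset _ _
  have hS2 : S2 ⊆ C := Finset.filter_subset _ _
  refine ⟨S1, hS1, S2, hS2, ?_, ?_⟩
  · rw [Finset.disjoint_left]
    rintro ⟨x, y⟩ h1 h2
    obtain ⟨y0, hr, hy⟩ := mem_fa.1 h1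
    obtain ⟨x0, hs, hx⟩ := mem_fc.1 h2
    obtain ⟨hr, u, hu, hur⟩ := Finset.mem_filter.1 hr
    obtain ⟨hs, v, hv, hvs⟩ := Finset.mem_filter.1 hs
    refine hG (fun i => if (x, i) ∈ R then u (x, i) else 0)
      (fun j => if (x0, j) ∈ C then v (x0, j) else 0) y0 y hy (by simpa [hr] using hur)
      (by simpa [hs] using hvs) (fun t ht => ?_) (fun s hs' => ?_)
    · have : (x0, t) ∈ C := by
        by_contra h
        simp [h] at ht
      exact hU u hu x t (mem_fc.2 ⟨x0, this, hx⟩)
    · have : (x, s) ∈ R := by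
        by_contra h
        simp [h] at hs'
      exact hVB v hv x0 s (mem_bc.2 ⟨x, this, hx⟩)
  · have e1 := rank_lower P (S1 ∪ Rᶜ) ((fa G S1 ∩ fc G C).map Function.Embedding.inl)
      (by
        intro u hu i hi
        by_contra h
        simp only [Finset.mem_union, Finset.mem_compl, not_or, not_not] at hi
        exact hi.1 (Finset.mem_filter.2 ⟨hi.2, u, hu, h⟩))
      (by
        intro w hw hPw
        have hwr : ∀ b, w (Sum.inr b) = 0 := fun b => hw _ (by simp)
        have hwl : ∀ f, w (Sum.inl f) ≠ 0 → f ∈ fa G S1 ∩ fc G C := fun f hf => by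
          by_contra h
          exact hf (hw _ (by simpa using h))
        ext m
        rcases m with ⟨x, t⟩ | b
        · by_contra h
          have hxt := hwl _ h
          obtain ⟨y0, hr, hy⟩ := mem_fa.1 (Finset.mem_inter.1 hxt).1
          obtain ⟨hr, u, hu, hur⟩ := Finset.mem_filter.1 hr
          refine hG (fun i => if (x, i) ∈ R then u (x, i) else 0)
            (fun j => w (Sum.inl (x, j))) y0 t hy (by simpa [hr] using hur) h
            (fun t' ht' => hU u hu x t' (Finset.mem_inter.1 (hwl _ ht')).2) (fun s hs => ?_)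
          have hsR : (x, s) ∈ R := by
            by_contra h
            simp [h] at hs
          have hsS : (x, s) ∈ S1 := Finset.mem_filter.2 ⟨hsR, u, hu, by simpa [hsR] using hs⟩
          have := hPw (x, s) (Finset.mem_union_left _ hsS)
          simp only [Matrix.mulVec, dotProduct, Fintype.sum_sum_type, P, Matrix.of_apply,
            Sum.elim_inl, Sum.elim_inr, hwr, mul_zero, Finset.sum_const_zero, add_zero,
            Fintype.sum_prod_type] at this
          rw [Finset.sum_eq_single x] at this
          · refine Eq.trans (Finset.sum_congr rfl fun j _ => ?_) this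
            by_cases hj : w (Sum.inl (x, j)) = 0
            · simp [hj]
            · have h1 := Finset.mem_inter.1 (hwl _ hj)
              obtain ⟨z, hz, hzj⟩ := mem_fa.1 h1.1
              have : (x, j) ∈ F := Finset.mem_inter.2 ⟨mem_fa.2 ⟨z, hS1 hz, hzj⟩, h1.2⟩
              simp [hsR, this]
          · intro b _ hb
            simp [Ne.symm hb]
          · simp
        · exact hwr b)
    have e2 := rank_lower Q (S2 ∪ Cᶜ) ((fa G R ∩ fc G S2).map Function.Embedding.inl)
      (by
        intro u hu i hi
        by_contra h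
        simp only [Finset.mem_union, Finset.mem_compl, not_or, not_not] at hi
        exact hi.1 (Finset.mem_filter.2 ⟨hi.2, u, hu, h⟩))
      (by
        intro w hw hPw
        have hwr : ∀ b, w (Sum.inr b) = 0 := fun b => hw _ (by simp)
        have hwl : ∀ f, w (Sum.inl f) ≠ 0 → f ∈ fa G R ∩ fc G S2 := fun f hf => by
          by_contra h
          exact hf (hw _ (by simpa using h))
        ext m
        rcases m with ⟨x, y⟩ | b
        · by_contra h
          have hxt := hwl _ h
          obtain ⟨x0, hr, hy⟩ := mem_fc.1 (Finset.mem_inter.1 hxt).2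
          obtain ⟨hr, v, hv, hvr⟩ := Finset.mem_filter.1 hr
          refine hG (fun i => if (i, y) ∈ C then v (i, y) else 0)
            (fun j => w (Sum.inl (j, y))) x0 x hy (by simpa [hr] using hvr) h
            (fun t' ht' => hVF v hv t' y (Finset.mem_inter.1 (hwl _ ht')).1) (fun s hs => ?_)
          have hsC : (s, y) ∈ C := by
            by_contra h
            simp [h] at hs
          have hsS : (s, y) ∈ S2 := Finset.mem_filter.2 ⟨hsC, v, hv, by simpa [hsC] using hs⟩
          have := hPw (s, y) (Finset.mem_union_left _ hsS)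
          simp only [Matrix.mulVec, dotProduct, Fintype.sum_sum_type, Q, Matrix.of_apply,
            Sum.elim_inl, Sum.elim_inr, hwr, mul_zero, Finset.sum_const_zero, add_zero,
            Fintype.sum_prod_type] at this
          refine Eq.trans (Finset.sum_congr rfl fun j _ => ?_) this
          rw [Finset.sum_eq_single y]
          · by_cases hj : w (Sum.inl (j, y)) = 0
            · simp [hj]
            · have h1 := Finset.mem_inter.1 (hwl _ hj)
              obtain ⟨z, hz, hzj⟩ := mem_fc.1 h1.2
              have : (j, y) ∈ F := Finset.mem_inter.2 ⟨h1.1, mem_fc.2 ⟨z, hS2 hz, hzj⟩⟩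
              simp [hsC, this]
          · intro b _ hb
            simp [Ne.symm hb]
          · simp
        · exact hwr b)
    rw [Finset.card_map] at e1 e2
    have c1 := Finset.card_union_le S1 Rᶜ
    have c2 := Finset.card_union_le S2 Cᶜ
    have d1 := Finset.card_add_card_compl R
    have d2 := Finset.card_add_card_compl C
    omega

theorem rank_lemma [DecidableEq V] (G : V → V → Prop) (R C : Finset (V × V)) :
    ∃ S1 ⊆ R, ∃ S2 ⊆ C, Disjoint (fa G S1) (fc G S2) ∧
      R.card + C.card + (fa G S1 ∩ fc G C).card + (fa G R ∩ fc G S2).card ≤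
        (fa G R ∩ fc G C).card + (bc G R ∩ ba G C).card + S1.card + S2.card := by
  obtain ⟨A, hA, hG⟩ := exists_generic G
  exact rank_lemma_aux G A hA hG R C

end Vale.Agent.P038
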